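import Vale.Agent.Lib.P210.TwoEnd

namespace Vale.Agent.Lib.P210

/-- The warping function of the round sphere of radius `R`: first derivative. -/
lemma sphere_hasDerivAt (R : ℝ) (hR : R ≠ 0) (r : ℝ) :
    HasDerivAt (fun x : ℝ => R * Real.sin (x / R)) (Real.cos (r / R)) r := by
  have h1 : HasDerivAt (fun x : ℝ => x / R) (1 / R) r := (hasDerivAt_id r).div_const R
  have h2 : HasDerivAt (fun x : ℝ => Real.sin (x / R)) (Real.cos (r / R) * (1 / R)) r :=
    h1.sin
  have h3 : HasDerivAt (fun x : ℝ => R * Real.sin (x / R)) (R * (Real.cos (r / R) * (1 / R))) r :=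
    h2.const_mul R
  have e : R * (Real.cos (r / R) * (1 / R)) = Real.cos (r / R) := by
    field_simp
  rw [e] at h3
  exact h3

lemma sphere_deriv (R : ℝ) (hR : R ≠ 0) :
    deriv (fun x : ℝ => R * Real.sin (x / R)) = fun r => Real.cos (r / R) := by
  funext r
  exact (sphere_hasDerivAt R hR r).deriv

/-- The warping function of the round sphere of radius `R`: second derivative. -/
lemma sphere_hasDerivAt2 (R : ℝ) (r : ℝ) :
    HasDerivAt (fun x : ℝ => Real.cos (x / R)) (-Real.sin (r / R) * (1 / R)) r := by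
  have h1 : HasDerivAt (fun x : ℝ => x / R) (1 / R) r := (hasDerivAt_id r).div_const R
  exact h1.cos

lemma sphere_deriv2 (R : ℝ) (hR : R ≠ 0) (r : ℝ) :
    deriv (deriv (fun x : ℝ => R * Real.sin (x / R))) r = -Real.sin (r / R) * (1 / R) := by
  rw [sphere_deriv R hR]
  exact (sphere_hasDerivAt2 R r).deriv

/-- Sharpness of the bound: the warping function `f r = R sin (r / R)` of the round sphere of
radius `R = sqrt (n (n - 1))` is `C²`, vanishes at `0`, is positive on `(0, π R)`, satisfies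
`warpedScal n f r = 1` there, and attains the value `R` at `r = π R / 2`. -/
theorem sphere_sharp (n : ℕ) (hn : 3 ≤ n) :
    ContDiff ℝ 2 (fun r : ℝ => Real.sqrt ((n : ℝ) * ((n : ℝ) - 1)) *
        Real.sin (r / Real.sqrt ((n : ℝ) * ((n : ℝ) - 1)))) ∧
    (∀ r : ℝ, 0 < r → r < Real.pi * Real.sqrt ((n : ℝ) * ((n : ℝ) - 1)) →
      0 < Real.sqrt ((n : ℝ) * ((n : ℝ) - 1)) *
          Real.sin (r / Real.sqrt ((n : ℝ) * ((n : ℝ) - 1))) ∧
      warpedScal n (fun r : ℝ => Real.sqrt ((n : ℝ) * ((n : ℝ) - 1)) *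
        Real.sin (r / Real.sqrt ((n : ℝ) * ((n : ℝ) - 1)))) r = 1) ∧
    Real.sqrt ((n : ℝ) * ((n : ℝ) - 1)) *
      Real.sin (Real.pi * Real.sqrt ((n : ℝ) * ((n : ℝ) - 1)) / 2 /
        Real.sqrt ((n : ℝ) * ((n : ℝ) - 1))) = Real.sqrt ((n : ℝ) * ((n : ℝ) - 1)) := by
  have hn3 : (3 : ℝ) ≤ (n : ℝ) := by exact_mod_cast hn
  have hR2pos : 0 < (n : ℝ) * ((n : ℝ) - 1) := by nlinarith
  set R : ℝ := Real.sqrt ((n : ℝ) * ((n : ℝ) - 1)) with hRdef
  have hRpos : 0 < R := Real.sqrt_pos.2 hR2pos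
  have hRne : R ≠ 0 := hRpos.ne'
  have hRsq : R ^ 2 = (n : ℝ) * ((n : ℝ) - 1) := Real.sq_sqrt hR2pos.le
  refine ⟨?_, ?_, ?_⟩
  · exact contDiff_const.mul (Real.contDiff_sin.comp (contDiff_id.div_const R))
  · intro r hr0 hrpi
    have hx0 : 0 < r / R := div_pos hr0 hRpos
    have hxpi : r / R < Real.pi := by
      rw [div_lt_iff₀ hRpos]
      exact hrpi
    have hsin : 0 < Real.sin (r / R) := Real.sin_pos_of_pos_of_lt_pi hx0 hxpi
    refine ⟨mul_pos hRpos hsin, ?_⟩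
    unfold warpedScal
    rw [sphere_deriv2 R hRne r, sphere_deriv R hRne]
    have hcos : Real.cos (r / R) ^ 2 = 1 - Real.sin (r / R) ^ 2 := by
      have := Real.sin_sq_add_cos_sq (r / R)
      linarith
    have hsne : Real.sin (r / R) ≠ 0 := hsin.ne'
    rw [hcos]
    have e1 : ((n : ℝ) - 1) * ((n : ℝ) - 2) * (1 - (1 - Real.sin (r / R) ^ 2)) /
        (R * Real.sin (r / R)) ^ 2 = ((n : ℝ) - 1) * ((n : ℝ) - 2) / R ^ 2 := by
      field_simp
      ring
    have e2 : 2 * ((n : ℝ) - 1) * (-Real.sin (r / R) * (1 / R)) / (R * Real.sin (r / R))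
        = -(2 * ((n : ℝ) - 1) / R ^ 2) := by
      field_simp
    rw [e1, e2, hRsq]
    have hn0 : (n : ℝ) ≠ 0 := by linarith
    have hn1 : (n : ℝ) - 1 ≠ 0 := by linarith
    field_simp
    ring
  · have e : Real.pi * R / 2 / R = Real.pi / 2 := by
      field_simp
    rw [e, Real.sin_pi_div_two, mul_one]

end Vale.Agent.Lib.P210
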