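import Vale.Agent.Lib.P210.Warp

/-!
# P210: rotationally symmetric metrics without a pole

The warping function `f > 0` on the whole line (the manifold is `S^{n-1} × ℝ`, or a quotient of
it) with scalar curvature at least one is again bounded by `sqrt (n (n - 1))`.
Here `n = m + 3`.
-/

namespace Vale.Agent.Lib.P210

open Set Filter Topology

/-- The mass function `f^(n-2) (1 - f'^2) - f^n / (n (n-1))`, with `n = m + 3`. -/
noncomputable def wm (m : ℕ) (f : ℝ → ℝ) (r : ℝ) : ℝ :=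
  f r ^ (m + 1) * (1 - deriv f r ^ 2) - f r ^ (m + 3) / (((m : ℝ) + 3) * ((m : ℝ) + 2))

/-- The curvature expression of `key_ineq`, which is nonpositive when the scalar curvature is
at least one. -/
noncomputable def wK (m : ℕ) (f : ℝ → ℝ) (r : ℝ) : ℝ :=
  ((m : ℝ) + 1) * (deriv f r ^ 2 - 1) + 2 * f r * deriv (deriv f) r + f r ^ 2 / ((m : ℝ) + 2)

/-! ### MASSDER : the derivative of the mass function -/

theorem wm_hasDerivAt (m : ℕ) (f : ℝ → ℝ) (hf : ContDiff ℝ 2 f) (r : ℝ) :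
    HasDerivAt (wm m f) (-(f r ^ m * deriv f r * wK m f r)) r := by
  have hfd : Differentiable ℝ f := hf.differentiable (by norm_num)
  have hf'd : Differentiable ℝ (deriv f) := hf.differentiable_deriv_two
  have h1 : HasDerivAt f (deriv f r) r := (hfd r).hasDerivAt
  have h2 : HasDerivAt (deriv f) (deriv (deriv f) r) r := (hf'd r).hasDerivAt
  have hM : (0 : ℝ) ≤ m := Nat.cast_nonneg m
  have hc2 : ((m : ℝ) + 2) ≠ 0 := by positivity
  have hc3 : ((m : ℝ) + 3) ≠ 0 := by positivity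
  have h3 := h1.pow (m + 1)
  have h4 := (h2.pow 2).const_sub 1
  have h5 := (h1.pow (m + 3)).div_const (((m : ℝ) + 3) * ((m : ℝ) + 2))
  have h6 := (h3.mul h4).sub h5
  refine HasDerivAt.congr_deriv h6 ?_
  unfold wK
  simp only [Nat.add_sub_cancel, Pi.pow_apply, show (2 - 1 : ℕ) = 1 from rfl, pow_one]
  push_cast
  field_simp
  ring

theorem wm_continuous (m : ℕ) (f : ℝ → ℝ) (hf : ContDiff ℝ 2 f) : Continuous (wm m f) :=
  continuous_iff_continuousAt.2 fun r => (wm_hasDerivAt m f hf r).continuousAt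

/-! ### MASSMONO : the mass function is antitone where the warping function decreases -/

theorem wm_antitoneOn (m : ℕ) (f : ℝ → ℝ) (hf : ContDiff ℝ 2 f) (hpos : ∀ r, 0 < f r)
    (hK : ∀ r, wK m f r ≤ 0) (a b : ℝ) (hd : ∀ r ∈ Icc a b, deriv f r ≤ 0) :
    AntitoneOn (wm m f) (Icc a b) := by
  refine antitoneOn_of_deriv_nonpos (convex_Icc a b) (wm_continuous m f hf).continuousOn
    (fun x _ => (wm_hasDerivAt m f hf x).differentiableAt.differentiableWithinAt) ?_
  intro x hx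
  have hxI : x ∈ Icc a b := interior_subset hx
  rw [(wm_hasDerivAt m f hf x).deriv]
  have h1 : 0 ≤ f x ^ m := pow_nonneg (hpos x).le m
  have h2 : 0 ≤ deriv f x * wK m f x := mul_nonneg_of_nonpos_of_nonpos (hd x hxI) (hK x)
  have h3 : 0 ≤ f x ^ m * (deriv f x * wK m f x) := mul_nonneg h1 h2
  rw [mul_assoc]
  linarith

/-! ### ALG : three pointwise consequences -/

theorem alg_aux (P x Q d : ℝ) (hP : 0 < P) (hQ : 0 < Q)
    (h : P * (1 - d ^ 2) - P * x ^ 2 / Q < 0) : (1 - d ^ 2) * Q < x ^ 2 := by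
  have h1 : P * ((1 - d ^ 2) - x ^ 2 / Q) < 0 := by
    have e : P * ((1 - d ^ 2) - x ^ 2 / Q) = P * (1 - d ^ 2) - P * x ^ 2 / Q := by ring
    linarith
  have h2 : (1 - d ^ 2) - x ^ 2 / Q < 0 := by
    by_contra hc
    have hc' : 0 ≤ (1 - d ^ 2) - x ^ 2 / Q := le_of_not_gt hc
    have := mul_nonneg hP.le hc'
    linarith
  have h3 : 1 - d ^ 2 < x ^ 2 / Q := by linarith
  exact (lt_div_iff₀ hQ).mp h3

theorem alg_wm_form (m : ℕ) (f : ℝ → ℝ) (r : ℝ) :
    wm m f r = f r ^ (m + 1) * (1 - deriv f r ^ 2)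
      - f r ^ (m + 1) * f r ^ 2 / (((m : ℝ) + 3) * ((m : ℝ) + 2)) := by
  unfold wm
  have e : f r ^ (m + 3) = f r ^ (m + 1) * f r ^ 2 := by ring
  rw [e]

/-- At a critical point with negative mass the warping function exceeds the sphere radius. -/
theorem wm_neg_crit (m : ℕ) (f : ℝ → ℝ) (r : ℝ) (hpos : 0 < f r) (hm : wm m f r < 0)
    (hd : deriv f r = 0) : ((m : ℝ) + 3) * ((m : ℝ) + 2) < f r ^ 2 := by
  have hM : (0:ℝ) ≤ m := Nat.cast_nonneg m
  have hQ : (0:ℝ) < ((m : ℝ) + 3) * ((m : ℝ) + 2) := by positivity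
  rw [alg_wm_form] at hm
  have h := alg_aux (f r ^ (m + 1)) (f r) (((m : ℝ) + 3) * ((m : ℝ) + 2)) (deriv f r)
    (pow_pos hpos _) hQ hm
  rw [hd] at h
  linarith

/-- With negative mass and a small warping function the slope is bounded away from zero. -/
theorem wm_neg_slope (m : ℕ) (f : ℝ → ℝ) (r : ℝ) (hpos : 0 < f r) (hm : wm m f r < 0)
    (hsmall : f r ^ 2 ≤ ((m : ℝ) + 2) * ((m : ℝ) + 1)) :
    2 / ((m : ℝ) + 3) < deriv f r ^ 2 := by
  have hM : (0:ℝ) ≤ m := Nat.cast_nonneg m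
  have hQ : (0:ℝ) < ((m : ℝ) + 3) * ((m : ℝ) + 2) := by positivity
  have h2 : (0:ℝ) < (m : ℝ) + 2 := by positivity
  have h3 : (0:ℝ) < (m : ℝ) + 3 := by positivity
  rw [alg_wm_form] at hm
  have h := alg_aux (f r ^ (m + 1)) (f r) (((m : ℝ) + 3) * ((m : ℝ) + 2)) (deriv f r)
    (pow_pos hpos _) hQ hm
  have h4 : ((1 - deriv f r ^ 2) * ((m : ℝ) + 3)) * ((m : ℝ) + 2)
      < ((m : ℝ) + 1) * ((m : ℝ) + 2) := by
    have e : ((1 - deriv f r ^ 2) * ((m : ℝ) + 3)) * ((m : ℝ) + 2)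
        = (1 - deriv f r ^ 2) * (((m : ℝ) + 3) * ((m : ℝ) + 2)) := by ring
    rw [e]
    linarith
  have h5 : (1 - deriv f r ^ 2) * ((m : ℝ) + 3) < (m : ℝ) + 1 :=
    lt_of_mul_lt_mul_right h4 h2.le
  rw [div_lt_iff₀ h3]
  linarith

/-- Above the cylinder radius the warping function is strictly concave. -/
theorem wK_concave (m : ℕ) (f : ℝ → ℝ) (r : ℝ) (hpos : 0 < f r) (hK : wK m f r ≤ 0)
    (hbig : ((m : ℝ) + 2) * ((m : ℝ) + 1) < f r ^ 2) : deriv (deriv f) r < 0 := by
  have hM : (0:ℝ) ≤ m := Nat.cast_nonneg m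
  have h2 : (0:ℝ) < (m : ℝ) + 2 := by positivity
  have h1 : (0:ℝ) ≤ (m : ℝ) + 1 := by positivity
  unfold wK at hK
  have h3 : (m : ℝ) + 1 < f r ^ 2 / ((m : ℝ) + 2) := by
    rw [lt_div_iff₀ h2]
    linarith
  have h4 : 0 ≤ ((m : ℝ) + 1) * deriv f r ^ 2 := mul_nonneg h1 (sq_nonneg _)
  have h5 : 2 * f r * deriv (deriv f) r < 0 := by
    have e : ((m : ℝ) + 1) * (deriv f r ^ 2 - 1)
        = ((m : ℝ) + 1) * deriv f r ^ 2 - ((m : ℝ) + 1) := by ring
    rw [e] at hK
    linarith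
  by_contra hc
  have hc' : 0 ≤ deriv (deriv f) r := le_of_not_gt hc
  have h6 : 0 ≤ 2 * f r * deriv (deriv f) r := mul_nonneg (by linarith) hc'
  linarith

/-! ### DECAY : a function with slope at most `-κ` on a half line becomes negative -/

theorem exists_neg_of_deriv_le (f : ℝ → ℝ) (hf : Differentiable ℝ f) (s κ : ℝ) (hκ : 0 < κ)
    (hd : ∀ r, s ≤ r → deriv f r ≤ -κ) : ∃ r, f r < 0 := by
  have hg : Differentiable ℝ (fun r : ℝ => f r + κ * r) :=
    hf.add ((differentiable_const κ).mul differentiable_id)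
  have hanti : AntitoneOn (fun r : ℝ => f r + κ * r) (Set.Ici s) := by
    refine antitoneOn_of_deriv_nonpos (convex_Ici s) hg.continuous.continuousOn
      hg.differentiableOn ?_
    intro x hx
    have hx' : s ≤ x := interior_subset hx
    have hda : HasDerivAt (fun r : ℝ => f r + κ * r) (deriv f x + κ * 1) x :=
      (hf x).hasDerivAt.add ((hasDerivAt_id x).const_mul κ)
    rw [hda.deriv]
    have := hd x hx'
    linarith
  have hr : s ≤ s + (|f s| + 1) / κ := by
    have : 0 ≤ (|f s| + 1) / κ := div_nonneg (by positivity) hκ.le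
    linarith
  refine ⟨s + (|f s| + 1) / κ, ?_⟩
  have h := hanti (Set.mem_Ici.mpr le_rfl) (Set.mem_Ici.mpr hr) hr
  have h' : f (s + (|f s| + 1) / κ) + κ * (s + (|f s| + 1) / κ) ≤ f s + κ * s := h
  have e : κ * (s + (|f s| + 1) / κ) = κ * s + (|f s| + 1) := by
    field_simp
  have := le_abs_self (f s)
  linarith

/-! ### CONT : continuation: the warping function keeps decreasing and the mass stays below -/

theorem cont_mass_neg (m : ℕ) (f : ℝ → ℝ) (r₀ : ℝ) (hpos : 0 < f r₀)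
    (hbig : ((m : ℝ) + 3) * ((m : ℝ) + 2) < f r₀ ^ 2) : wm m f r₀ < 0 := by
  unfold wm
  have hM : (0 : ℝ) ≤ m := Nat.cast_nonneg m
  have hc : 0 < ((m : ℝ) + 3) * ((m : ℝ) + 2) := by positivity
  have hx : 0 < f r₀ ^ (m + 1) := pow_pos hpos _
  have e : f r₀ ^ (m + 3) = f r₀ ^ (m + 1) * f r₀ ^ 2 := by rw [← pow_add]
  rw [e, mul_div_assoc]
  have h1 : 1 < f r₀ ^ 2 / (((m : ℝ) + 3) * ((m : ℝ) + 2)) := by
    rw [lt_div_iff₀ hc]
    linarith
  have h2 : 1 - deriv f r₀ ^ 2 ≤ 1 := by nlinarith [sq_nonneg (deriv f r₀)]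
  have h3 := mul_le_mul_of_nonneg_left h2 hx.le
  have h4 := mul_lt_mul_of_pos_left h1 hx
  linarith

theorem wm_continuation (m : ℕ) (f : ℝ → ℝ) (hf : ContDiff ℝ 2 f) (hpos : ∀ r, 0 < f r)
    (hK : ∀ r, wK m f r ≤ 0) (r₀ : ℝ) (hd : deriv f r₀ ≤ 0)
    (hbig : ((m : ℝ) + 3) * ((m : ℝ) + 2) < f r₀ ^ 2) :
    ∀ r, r₀ ≤ r → deriv f r ≤ 0 ∧ wm m f r ≤ wm m f r₀ := by
  intro r hr
  have hfc : Continuous f := hf.continuous
  have hf'c : Continuous (deriv f) := hf.continuous_deriv (by norm_num)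
  have hf'd : Differentiable ℝ (deriv f) := hf.differentiable_deriv_two
  have hμ : wm m f r₀ < 0 := cont_mass_neg m f r₀ (hpos r₀) hbig
  have hwc : Continuous (wm m f) := wm_continuous m f hf
  have hsclosed : IsClosed {t | deriv f t ≤ 0 ∧ wm m f t ≤ wm m f r₀} := by
    have h1 : IsClosed {t | deriv f t ≤ 0} := isClosed_le hf'c continuous_const
    have h2 : IsClosed {t | wm m f t ≤ wm m f r₀} := isClosed_le hwc continuous_const
    exact h1.inter h2
  have hsub : Icc r₀ r ⊆ {t | deriv f t ≤ 0 ∧ wm m f t ≤ wm m f r₀} := by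
    apply IsClosed.Icc_subset_of_forall_exists_gt (hsclosed.inter isClosed_Icc)
    · exact ⟨hd, le_refl _⟩
    · intro x hx y hy
      obtain ⟨⟨hxd, hxm⟩, _⟩ := hx
      have hxy : x < y := hy
      have hclaim : ∃ e : ℝ, 0 < e ∧ ∀ t ∈ Icc x (x + e), deriv f t ≤ 0 := by
        rcases lt_or_eq_of_le hxd with hneg | hzero
        · have hopen : IsOpen {t | deriv f t < 0} := isOpen_lt hf'c continuous_const
          obtain ⟨e, he, hball⟩ := Metric.isOpen_iff.1 hopen x hneg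
          refine ⟨e / 2, by positivity, fun t ht => ?_⟩
          have hmem : t ∈ Metric.ball x e := by
            rw [Metric.mem_ball, Real.dist_eq, abs_lt]
            constructor
            · linarith [ht.1]
            · linarith [ht.2]
          exact (hball hmem).le
        · have hxneg : wm m f x < 0 := lt_of_le_of_lt hxm hμ
          have hbigx := wm_neg_crit m f x (hpos x) hxneg hzero
          have hM : (0 : ℝ) ≤ m := Nat.cast_nonneg m
          have hbig2 : ((m : ℝ) + 2) * ((m : ℝ) + 1) < f x ^ 2 := by nlinarith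
          have hopen : IsOpen {t | ((m : ℝ) + 2) * ((m : ℝ) + 1) < f t ^ 2} :=
            isOpen_lt continuous_const (hfc.pow 2)
          obtain ⟨e, he, hball⟩ := Metric.isOpen_iff.1 hopen x hbig2
          refine ⟨e / 2, by positivity, fun t ht => ?_⟩
          have hanti : AntitoneOn (deriv f) (Icc x (x + e / 2)) := by
            apply antitoneOn_of_deriv_nonpos (convex_Icc _ _) hf'c.continuousOn
              hf'd.differentiableOn
            intro u hu
            have hu' := interior_subset hu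
            have hmem : u ∈ Metric.ball x e := by
              rw [Metric.mem_ball, Real.dist_eq, abs_lt]
              constructor
              · linarith [hu'.1]
              · linarith [hu'.2]
            exact (wK_concave m f u (hpos u) (hK u) (hball hmem)).le
          have h5 := hanti (left_mem_Icc.2 (by linarith)) ht ht.1
          rw [hzero] at h5
          exact h5
      obtain ⟨e, he, hcl⟩ := hclaim
      have hle : x ≤ min (x + e) y := le_min (by linarith) hxy.le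
      refine ⟨min (x + e) y, ⟨?_, ?_⟩, ?_⟩
      · exact hcl _ ⟨hle, min_le_left _ _⟩
      · have hanti := wm_antitoneOn m f hf hpos hK x (min (x + e) y)
          (fun t ht => hcl t ⟨ht.1, le_trans ht.2 (min_le_left _ _)⟩)
        have h6 := hanti (left_mem_Icc.2 hle) (right_mem_Icc.2 hle) hle
        exact le_trans h6 hxm
      · exact ⟨lt_min (by linarith) hxy, min_le_right _ _⟩
  exact hsub (right_mem_Icc.2 hr)

/-! ### ONESIDE : no point above the sphere radius with nonpositive slope -/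

theorem wm_oneside (m : ℕ) (f : ℝ → ℝ) (hf : ContDiff ℝ 2 f) (hpos : ∀ r, 0 < f r)
    (hK : ∀ r, wK m f r ≤ 0) (r₀ : ℝ) (hd : deriv f r₀ ≤ 0) :
    f r₀ ^ 2 ≤ ((m : ℝ) + 3) * ((m : ℝ) + 2) := by
  by_contra hcon
  have hbig : ((m : ℝ) + 3) * ((m : ℝ) + 2) < f r₀ ^ 2 := not_le.mp hcon
  have H := wm_continuation m f hf hpos hK r₀ hd hbig
  have hm0 : (0 : ℝ) ≤ m := Nat.cast_nonneg m
  have hN : (0 : ℝ) < ((m : ℝ) + 3) * ((m : ℝ) + 2) := by positivity
  have hdiff : Differentiable ℝ f := hf.differentiable (by norm_num)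
  have hdiff' : Differentiable ℝ (deriv f) := hf.differentiable_deriv_two
  have hmu : wm m f r₀ < 0 := by
    have hx := hpos r₀
    unfold wm
    have h1 : f r₀ ^ (m + 1) * (1 - deriv f r₀ ^ 2) ≤ f r₀ ^ (m + 1) := by
      have h0 : 0 ≤ f r₀ ^ (m + 1) * deriv f r₀ ^ 2 := by positivity
      have h00 : f r₀ ^ (m + 1) * (1 - deriv f r₀ ^ 2) =
          f r₀ ^ (m + 1) - f r₀ ^ (m + 1) * deriv f r₀ ^ 2 := by ring
      linarith
    have h2 : f r₀ ^ (m + 1) < f r₀ ^ (m + 3) / (((m : ℝ) + 3) * ((m : ℝ) + 2)) := by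
      rw [lt_div_iff₀ hN]
      have h3 : f r₀ ^ (m + 3) = f r₀ ^ (m + 1) * f r₀ ^ 2 := by ring
      rw [h3]
      exact mul_lt_mul_of_pos_left hbig (by positivity)
    linarith
  have hanti : AntitoneOn f (Ici r₀) := by
    apply antitoneOn_of_deriv_nonpos (convex_Ici r₀) hdiff.continuous.continuousOn
      hdiff.differentiableOn
    intro x hx
    rw [interior_Ici] at hx
    exact (H x (le_of_lt hx)).1
  by_cases hA : ∃ r1, r₀ ≤ r1 ∧ f r1 ^ 2 ≤ ((m : ℝ) + 2) * ((m : ℝ) + 1)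
  · obtain ⟨r1, hr1, hsm⟩ := hA
    have hk2 : (0 : ℝ) < 2 / ((m : ℝ) + 3) := by positivity
    have hs : 0 < Real.sqrt (2 / ((m : ℝ) + 3)) := Real.sqrt_pos.mpr hk2
    have hslope : ∀ r, r1 ≤ r → deriv f r ≤ -Real.sqrt (2 / ((m : ℝ) + 3)) := by
      intro r hr
      have hr0 : r₀ ≤ r := le_trans hr1 hr
      have hfr : f r ≤ f r1 := hanti (mem_Ici.mpr hr1) (mem_Ici.mpr hr0) hr
      have hsmall : f r ^ 2 ≤ ((m : ℝ) + 2) * ((m : ℝ) + 1) :=
        le_trans (pow_le_pow_left₀ (hpos r).le hfr 2) hsm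
      have hwm : wm m f r < 0 := lt_of_le_of_lt (H r hr0).2 hmu
      have h1 := wm_neg_slope m f r (hpos r) hwm hsmall
      have h2 := (H r hr0).1
      by_contra h3
      push Not at h3
      have h4 : Real.sqrt (2 / ((m : ℝ) + 3)) ^ 2 = 2 / ((m : ℝ) + 3) := Real.sq_sqrt hk2.le
      have h5 : 0 ≤ (-deriv f r) * (Real.sqrt (2 / ((m : ℝ) + 3)) + deriv f r) :=
        mul_nonneg (by linarith) (by linarith)
      have h6 : 0 ≤ Real.sqrt (2 / ((m : ℝ) + 3)) *
          (Real.sqrt (2 / ((m : ℝ) + 3)) + deriv f r) := mul_nonneg hs.le (by linarith)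
      nlinarith
    obtain ⟨r, hr⟩ := exists_neg_of_deriv_le f hdiff r1 _ hs hslope
    exact absurd (hpos r) (not_lt.mpr hr.le)
  · push Not at hA
    have hcc : ∀ r, r₀ ≤ r → deriv (deriv f) r < 0 :=
      fun r hr => wK_concave m f r (hpos r) (hK r) (hA r hr)
    have hsa : StrictAntiOn (deriv f) (Ici r₀) := by
      apply strictAntiOn_of_deriv_neg (convex_Ici r₀) hdiff'.continuous.continuousOn
      intro x hx
      rw [interior_Ici] at hx
      exact hcc x (le_of_lt hx)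
    have h1 : deriv f (r₀ + 1) < deriv f r₀ :=
      hsa (mem_Ici.mpr le_rfl) (mem_Ici.mpr (by linarith)) (by linarith)
    have hκ : 0 < -(deriv f (r₀ + 1)) := by linarith
    have hslope : ∀ r, r₀ + 1 ≤ r → deriv f r ≤ -(-(deriv f (r₀ + 1))) := by
      intro r hr
      rw [neg_neg]
      exact hsa.antitoneOn (mem_Ici.mpr (by linarith)) (mem_Ici.mpr (by linarith)) hr
    obtain ⟨r, hr⟩ := exists_neg_of_deriv_le f hdiff (r₀ + 1) _ hκ hslope
    exact absurd (hpos r) (not_lt.mpr hr.le)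

/-! ### REFL : reflection of the variable -/

theorem wK_reflect (m : ℕ) (f : ℝ → ℝ) (hf : ContDiff ℝ 2 f) :
    ContDiff ℝ 2 (fun r => f (-r)) ∧ (∀ r, deriv (fun r => f (-r)) r = -deriv f (-r)) ∧
      ∀ r, wK m (fun r => f (-r)) r = wK m f (-r) := by
  have h1 : ∀ r, deriv (fun r => f (-r)) r = -deriv f (-r) := fun r => deriv_comp_neg f r
  have h1' : deriv (fun r => f (-r)) = fun r => -deriv f (-r) := funext h1
  have h2 : ∀ r, deriv (deriv (fun r => f (-r))) r = deriv (deriv f) (-r) := by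
    intro r
    rw [h1']
    have e : deriv (fun r => -deriv f (-r)) r = -deriv (fun x => deriv f (-x)) r :=
      deriv.fun_neg
    rw [e, deriv_comp_neg (deriv f) r, neg_neg]
  refine ⟨hf.comp contDiff_neg, h1, fun r => ?_⟩
  unfold wK
  rw [h1 r, h2 r, neg_sq]

/-! ### MAIN : the two-ended bound -/

theorem warp_le_two_ended_aux (m : ℕ) (f : ℝ → ℝ) (hf : ContDiff ℝ 2 f)
    (hpos : ∀ r, 0 < f r) (hK : ∀ r, wK m f r ≤ 0) (r : ℝ) :
    f r ^ 2 ≤ ((m : ℝ) + 3) * ((m : ℝ) + 2) := by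
  by_cases h : deriv f r ≤ 0
  · exact wm_oneside m f hf hpos hK r h
  · push Not at h
    obtain ⟨hg, hgd, hgK⟩ := wK_reflect m f hf
    have hd : deriv (fun t => f (-t)) (-r) ≤ 0 := by
      rw [hgd (-r), neg_neg]
      linarith
    have hK' : ∀ t, wK m (fun t => f (-t)) t ≤ 0 := by
      intro t
      rw [hgK t]
      exact hK (-t)
    have h1 := wm_oneside m (fun t => f (-t)) hg (fun t => hpos (-t)) hK' (-r) hd
    rw [neg_neg] at h1
    exact h1

/-- Rotationally symmetric metrics `dr² + f(r)² g_{S^{n-1}}` without a pole (`f > 0` on the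
whole line), `n ≥ 3`: if the scalar curvature is at least one everywhere, then
`f ≤ sqrt (n (n-1))` everywhere. -/
theorem warp_le_two_ended (n : ℕ) (hn : 3 ≤ n) (f : ℝ → ℝ) (hf : ContDiff ℝ 2 f)
    (hpos : ∀ r, 0 < f r) (hscal : ∀ r, 1 ≤ warpedScal n f r) :
    ∀ r, f r ≤ Real.sqrt ((n : ℝ) * ((n : ℝ) - 1)) := by
  obtain ⟨m, rfl⟩ : ∃ m, n = m + 3 := ⟨n - 3, by omega⟩
  have hK : ∀ r, wK m f r ≤ 0 := by
    intro r
    have h := hscal r
    unfold warpedScal at h
    push_cast at h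
    have e1 : (m : ℝ) + 3 - 1 = (m : ℝ) + 2 := by ring
    have e2 : (m : ℝ) + 3 - 2 = (m : ℝ) + 1 := by ring
    rw [e1, e2] at h
    have hk := key_ineq (m : ℝ) (Nat.cast_nonneg m) (f r) (deriv f r) (deriv (deriv f) r)
      (hpos r) h
    unfold wK
    exact hk
  intro r
  have h := warp_le_two_ended_aux m f hf hpos hK r
  push_cast
  have e1 : (m : ℝ) + 3 - 1 = (m : ℝ) + 2 := by ring
  rw [e1]
  exact (Real.le_sqrt' (hpos r)).mpr h

end Vale.Agent.Lib.P210
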