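import Mathlib

namespace Vale.Agent.Lib.P210

open Set Filter Topology

/-- The key inequality obtained from the curvature condition. -/
lemma key_ineq (m : ℝ) (hm : 0 ≤ m) (x d1 d2 : ℝ) (hx : 0 < x)
    (h : 1 ≤ (m + 2) * (m + 1) * (1 - d1 ^ 2) / x ^ 2 - 2 * (m + 2) * d2 / x) :
    (m + 1) * (d1 ^ 2 - 1) + 2 * x * d2 + x ^ 2 / (m + 2) ≤ 0 := by
  have hm2 : 0 < m + 2 := by linarith
  have hx2 : 0 < x ^ 2 := by positivity
  have h1 : (m + 2) * (m + 1) * (1 - d1 ^ 2) / x ^ 2 - 2 * (m + 2) * d2 / x
      = ((m + 2) * (m + 1) * (1 - d1 ^ 2) - 2 * (m + 2) * d2 * x) / x ^ 2 := by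
    field_simp
  rw [h1, le_div_iff₀ hx2] at h
  have h2 : x ^ 2 / (m + 2) ≤ (m + 1) * (1 - d1 ^ 2) - 2 * d2 * x := by
    rw [div_le_iff₀ hm2]
    nlinarith
  linarith

/-- Warping functions of rotationally symmetric metrics with scalar curvature at least one are
bounded by the radius of the round sphere of scalar curvature one.  Here `n = m + 3`. -/
theorem warp_le (m : ℕ) (a : ℝ) (f : ℝ → ℝ) (hf : ContDiff ℝ 2 f) (h0 : f 0 = 0)
    (hpos : ∀ r, 0 < r → r < a → 0 < f r)
    (hscal : ∀ r, 0 < r → r < a →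
      1 ≤ ((m : ℝ) + 2) * ((m : ℝ) + 1) * (1 - deriv f r ^ 2) / f r ^ 2
        - 2 * ((m : ℝ) + 2) * deriv (deriv f) r / f r) :
    ∀ r, 0 ≤ r → r < a → f r ≤ Real.sqrt (((m : ℝ) + 3) * ((m : ℝ) + 2)) := by
  intro r₁ hr₁0 hr₁a
  by_contra hcon
  push Not at hcon
  set R2 : ℝ := ((m : ℝ) + 3) * ((m : ℝ) + 2) with hR2
  set R : ℝ := Real.sqrt R2 with hR
  have hm0 : (0 : ℝ) ≤ (m : ℝ) := Nat.cast_nonneg m
  have hR2pos : 0 < R2 := by rw [hR2]; positivity
  have hRpos : 0 < R := Real.sqrt_pos.2 hR2pos
  have hRsq : R ^ 2 = R2 := Real.sq_sqrt hR2pos.le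
  -- regularity
  have hfd : Differentiable ℝ f := hf.differentiable (by norm_num)
  have hfc : Continuous f := hf.continuous
  have hf'c : Continuous (deriv f) := hf.continuous_deriv (by norm_num)
  have hf'd : Differentiable ℝ (deriv f) := hf.differentiable_deriv_two
  -- the first time the bound is violated
  set S : Set ℝ := {r | 0 ≤ r ∧ r ≤ r₁ ∧ R < f r} with hS
  have hSne : S.Nonempty := ⟨r₁, hr₁0, le_refl _, hcon⟩
  have hSbdd : BddBelow S := ⟨0, fun r hr => hr.1⟩
  set r₀ : ℝ := sInf S with hr₀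
  have hr₀0 : 0 ≤ r₀ := le_csInf hSne (fun r hr => hr.1)
  have hr₀1 : r₀ ≤ r₁ := csInf_le hSbdd ⟨hr₁0, le_refl _, hcon⟩
  have hbelow : ∀ r, 0 ≤ r → r < r₀ → f r ≤ R := by
    intro r hr0 hr
    by_contra h
    push Not at h
    have : r₀ ≤ r := csInf_le hSbdd ⟨hr0, (hr.le.trans hr₀1), h⟩
    linarith
  have hge : R ≤ f r₀ := by
    have hcl : IsClosed {r | R ≤ f r} := isClosed_le continuous_const hfc
    have hsub : S ⊆ {r | R ≤ f r} := fun r hr => hr.2.2.le
    have := closure_minimal hsub hcl (csInf_mem_closure hSne hSbdd)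
    exact this
  have hr₀pos : 0 < r₀ := by
    rcases eq_or_lt_of_le hr₀0 with h | h
    · rw [← h, h0] at hge
      linarith
    · exact h
  have hle : f r₀ ≤ R := by
    by_contra h
    push Not at h
    have hopen : IsOpen {r | R < f r} := isOpen_lt continuous_const hfc
    obtain ⟨ε, hε, hball⟩ := Metric.isOpen_iff.1 hopen r₀ h
    set r := max (r₀ - ε / 2) (r₀ / 2) with hr
    have hr1 : r < r₀ := by
      rw [hr]
      apply max_lt <;> linarith
    have hr2 : 0 ≤ r := by
      rw [hr]
      exact le_max_of_le_right (by linarith)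
    have hr3 : r ∈ Metric.ball r₀ ε := by
      rw [Metric.mem_ball, Real.dist_eq, abs_lt]
      constructor
      · have : r₀ - ε / 2 ≤ r := le_max_left _ _
        linarith
      · linarith
    have := hbelow r hr2 hr1
    have h2 : R < f r := hball hr3
    linarith
  have heq : f r₀ = R := le_antisymm hle hge
  have hr₀lt : r₀ < r₁ := by
    rcases eq_or_lt_of_le hr₀1 with h | h
    · rw [h] at heq
      linarith
    · exact h
  have hr₀a : r₀ < a := hr₀lt.trans hr₁a
  -- points of S accumulate at r₀ from the right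
  have hacc : ∀ ε : ℝ, 0 < ε → ∃ r, r₀ < r ∧ r < r₀ + ε ∧ R < f r := by
    intro ε hε
    obtain ⟨r, hrS, hr⟩ := exists_lt_of_csInf_lt hSne (show sInf S < r₀ + ε by linarith)
    have h1 : r₀ ≤ r := csInf_le hSbdd hrS
    rcases eq_or_lt_of_le h1 with h | h
    · have := hrS.2.2
      rw [← h, heq] at this
      exact absurd this (lt_irrefl _)
    · exact ⟨r, h, hr, hrS.2.2⟩
  -- the auxiliary function
  set G : ℝ → ℝ := fun r => f r ^ (m + 1) * (deriv f r ^ 2 - 1 + f r ^ 2 / R2) with hG
  have hGc : Continuous G := by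
    rw [hG]
    fun_prop
  have hGd : ∀ r, HasDerivAt G (f r ^ m * deriv f r *
      (((m : ℝ) + 1) * (deriv f r ^ 2 - 1) + 2 * f r * deriv (deriv f) r
        + f r ^ 2 / ((m : ℝ) + 2))) r := by
    intro r
    have h1 : HasDerivAt f (deriv f r) r := (hfd r).hasDerivAt
    have h2 : HasDerivAt (deriv f) (deriv (deriv f) r) r := (hf'd r).hasDerivAt
    have h3 : HasDerivAt (fun r => f r ^ (m + 1)) (((m : ℝ) + 1) * f r ^ m * deriv f r) r := by
      have := h1.fun_pow (m + 1)
      simpa using this
    have h4 : HasDerivAt (fun r => deriv f r ^ 2 - 1 + f r ^ 2 / R2)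
        (2 * deriv f r * deriv (deriv f) r + 2 * f r * deriv f r / R2) r := by
      have h5 := (h2.fun_pow 2).sub_const 1
      have h6 := (h1.fun_pow 2).div_const R2
      have h7 := h5.add h6
      refine h7.congr_deriv ?_
      simp
    have h7 := h3.fun_mul h4
    refine h7.congr_deriv ?_
    rw [hR2]
    have hm2 : (m : ℝ) + 2 ≠ 0 := by positivity
    have hm3 : (m : ℝ) + 3 ≠ 0 := by positivity
    rw [pow_succ (f r) m]
    field_simp
    ring
  -- the derivative of f at r₀ is nonpositive
  have hA : deriv f r₀ ≤ 0 := by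
    by_contra hA
    push Not at hA
    set T : Set ℝ := {r | 0 ≤ r ∧ r ≤ r₀ ∧ (deriv f r ≤ 0 ∨ r = 0)} with hT
    have hTne : T.Nonempty := ⟨0, le_refl _, hr₀0, Or.inr rfl⟩
    have hTbdd : BddAbove T := ⟨r₀, fun r hr => hr.2.1⟩
    have hTcl : IsClosed T := by
      have h1 : T = Icc 0 r₀ ∩ ({r | deriv f r ≤ 0} ∪ {0}) := by
        ext r
        simp only [hT, Set.mem_ofPred_eq, mem_inter_iff, mem_Icc, mem_union, mem_singleton_iff]
        tauto
      rw [h1]
      exact isClosed_Icc.inter ((isClosed_le hf'c continuous_const).union isClosed_singleton)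
    set r₂ : ℝ := sSup T with hr₂
    have hr₂T : r₂ ∈ T := hTcl.csSup_mem hTne hTbdd
    obtain ⟨hr₂0, hr₂le, hr₂or⟩ := hr₂T
    have hr₂lt : r₂ < r₀ := by
      rcases eq_or_lt_of_le hr₂le with h | h
      · rw [h] at hr₂or
        rcases hr₂or with h' | h'
        · linarith
        · linarith
      · exact h
    have habove : ∀ r, r₂ < r → r ≤ r₀ → 0 < deriv f r := by
      intro r hr hr'
      by_contra h
      push Not at h
      have : r ≤ r₂ := le_csSup hTbdd ⟨hr₂0.trans hr.le, hr', Or.inl h⟩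
      linarith
    have hG2 : G r₂ ≤ 0 := by
      rcases eq_or_lt_of_le hr₂0 with h | h
      · rw [← h, hG]
        simp [h0]
      · have hd2 : deriv f r₂ = 0 := by
          rcases hr₂or with h' | h'
          · apply le_antisymm h'
            by_contra hneg
            push Not at hneg
            have hopen : IsOpen {r | deriv f r < 0} := isOpen_lt hf'c continuous_const
            obtain ⟨ε, hε, hball⟩ := Metric.isOpen_iff.1 hopen r₂ hneg
            set r := min (r₂ + ε / 2) r₀ with hr
            have hr1 : r₂ < r := by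
              rw [hr]
              apply lt_min <;> linarith
            have hr2 : r ≤ r₀ := min_le_right _ _
            have hr3 : r ∈ Metric.ball r₂ ε := by
              rw [Metric.mem_ball, Real.dist_eq, abs_lt]
              constructor
              · linarith
              · have : r ≤ r₂ + ε / 2 := min_le_left _ _
                linarith
            have h1 := habove r hr1 hr2
            have h2 : deriv f r < 0 := hball hr3
            linarith
          · linarith
        have hf2pos : 0 < f r₂ := hpos r₂ h (hr₂lt.trans hr₀a)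
        have hf2le : f r₂ ≤ R := hbelow r₂ hr₂0 hr₂lt
        rw [hG]
        simp only
        rw [hd2]
        have h3 : f r₂ ^ 2 / R2 ≤ 1 := by
          rw [div_le_one hR2pos, ← hRsq]
          exact pow_le_pow_left₀ hf2pos.le hf2le 2
        have h4 : 0 ≤ f r₂ ^ (m + 1) := by positivity
        nlinarith
    have hanti : AntitoneOn G (Icc r₂ r₀) := by
      apply antitoneOn_of_deriv_nonpos (convex_Icc _ _) hGc.continuousOn
      · intro r _
        exact (hGd r).differentiableAt.differentiableWithinAt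
      · intro r hr
        rw [interior_Icc] at hr
        rw [(hGd r).deriv]
        have hrpos : 0 < r := lt_of_le_of_lt hr₂0 hr.1
        have hra : r < a := hr.2.trans hr₀a
        have hfr : 0 < f r := hpos r hrpos hra
        have hK := key_ineq (m : ℝ) hm0 (f r) (deriv f r) (deriv (deriv f) r) hfr
          (hscal r hrpos hra)
        have hd : 0 < deriv f r := habove r hr.1 hr.2.le
        have h1 : 0 ≤ f r ^ m * deriv f r := by positivity
        exact mul_nonpos_of_nonneg_of_nonpos h1 hK
    have hG0 : G r₀ ≤ G r₂ :=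
      hanti (left_mem_Icc.2 hr₂lt.le) (right_mem_Icc.2 hr₂lt.le) hr₂lt.le
    have hG0' : G r₀ = R ^ (m + 1) * deriv f r₀ ^ 2 := by
      rw [hG]
      simp only
      rw [heq, hRsq, div_self hR2pos.ne']
      ring
    have : 0 < R ^ (m + 1) * deriv f r₀ ^ 2 := by positivity
    linarith
  -- f does not exceed f r₀ immediately to the right of r₀
  have hloc : ∃ ε : ℝ, 0 < ε ∧ ∀ r, r₀ < r → r < r₀ + ε → f r ≤ f r₀ := by
    rcases eq_or_lt_of_le hA with h | h
    · -- critical point with negative second derivative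
      have hK := hscal r₀ hr₀pos hr₀a
      rw [h, heq] at hK
      have hdd : deriv (deriv f) r₀ < 0 := by
        by_contra hnn
        push Not at hnn
        have h1 : ((m : ℝ) + 2) * ((m : ℝ) + 1) * (1 - 0 ^ 2) / R ^ 2 < 1 := by
          rw [hRsq, hR2, div_lt_one (by positivity)]
          nlinarith
        have h2 : 0 ≤ 2 * ((m : ℝ) + 2) * deriv (deriv f) r₀ / R := by positivity
        linarith
      have hmax := isLocalMax_of_deriv_deriv_neg hdd h hfc.continuousAt
      obtain ⟨ε, hε, hball⟩ := Metric.eventually_nhds_iff.1 hmax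
      refine ⟨ε, hε, fun r hr1 hr2 => hball ?_⟩
      rw [Real.dist_eq, abs_lt]
      constructor <;> linarith
    · -- negative derivative
      have hopen : IsOpen {r | deriv f r < 0} := isOpen_lt hf'c continuous_const
      obtain ⟨ε, hε, hball⟩ := Metric.isOpen_iff.1 hopen r₀ h
      refine ⟨ε, hε, fun r hr1 hr2 => ?_⟩
      have hanti : AntitoneOn f (Icc r₀ r) := by
        apply antitoneOn_of_deriv_nonpos (convex_Icc _ _) hfc.continuousOn
        · intro x _
          exact (hfd x).differentiableWithinAt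
        · intro x hx
          rw [interior_Icc] at hx
          have hx' : x ∈ Metric.ball r₀ ε := by
            rw [Metric.mem_ball, Real.dist_eq, abs_lt]
            constructor <;> linarith [hx.1, hx.2]
          exact (hball hx').le
      exact hanti (left_mem_Icc.2 hr1.le) (right_mem_Icc.2 hr1.le) hr1.le
  obtain ⟨ε, hε, hlocal⟩ := hloc
  obtain ⟨r, hr1, hr2, hr3⟩ := hacc ε hε
  have := hlocal r hr1 hr2
  rw [heq] at this
  linarith

/-- The scalar curvature, at radius `r`, of the rotationally symmetric metric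
`dr² + f(r)² g_{S^{n-1}}` in dimension `n`, written through the warping function `f`:
`(n-1)(n-2)(1 - f'(r)²)/f(r)² - 2(n-1) f''(r)/f(r)`. -/
noncomputable def warpedScal (n : ℕ) (f : ℝ → ℝ) (r : ℝ) : ℝ :=
  ((n : ℝ) - 1) * ((n : ℝ) - 2) * (1 - deriv f r ^ 2) / f r ^ 2
    - 2 * ((n : ℝ) - 1) * deriv (deriv f) r / f r

/-- The warping function bound in terms of the dimension `n ≥ 3`. -/
theorem warp_le_dim (n : ℕ) (hn : 3 ≤ n) (a : ℝ) (f : ℝ → ℝ) (hf : ContDiff ℝ 2 f)
    (h0 : f 0 = 0) (hpos : ∀ r, 0 < r → r < a → 0 < f r)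
    (hscal : ∀ r, 0 < r → r < a → 1 ≤ warpedScal n f r) :
    ∀ r, 0 ≤ r → r < a → f r ≤ Real.sqrt ((n : ℝ) * ((n : ℝ) - 1)) := by
  obtain ⟨m, rfl⟩ : ∃ m, n = m + 3 := ⟨n - 3, by omega⟩
  have h := warp_le m a f hf h0 hpos (by
    intro r hr hra
    have := hscal r hr hra
    unfold warpedScal at this
    push_cast at this
    have e1 : (m : ℝ) + 3 - 1 = (m : ℝ) + 2 := by ring
    have e2 : (m : ℝ) + 3 - 2 = (m : ℝ) + 1 := by ring
    rw [e1, e2] at this
    exact this)
  intro r hr hra
  have := h r hr hra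
  push_cast
  have e1 : (m : ℝ) + 3 - 1 = (m : ℝ) + 2 := by ring
  rw [e1]
  exact this

end Vale.Agent.Lib.P210
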